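import Vale.Agent.P323.CPP
import Vale.Agent.P323.CNAC

namespace Vale.Agent.Results.P323.Full

open Vale.Agent.P323

theorem result : ∃ (M : Type) (E : M → M → Prop), IsZF E ∧ PP E ∧ ¬ AC E := by
  have h : Cardinal.continuum < Cardinal.mk (Set ℝ) := by
    rw [Cardinal.mk_set, Cardinal.mk_real]
    exact Cardinal.cantor _
  exact exists_model_of_force (ppForce h h) (notACForce h h)

end Vale.Agent.Results.P323.Full
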